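import Vale.Agent.P173.Lx
import Vale.Agent.P173.Cd
import Vale.Agent.P173.CW

open Vale.Agent.P173 in
theorem Vale.Agent.Results.P173.Counter.result : ∃ (Γ : Type) (_ : Group Γ),
    CategoryTheory.projectiveDimension (ModuleCat.of (MonoidAlgebra ℤ Γ)
      (Representation.trivial ℤ Γ ℤ).asModule) = 2 ∧
    ∀ (X : Type*) [TopologicalSpace X] [T2Space X] [Topology.CWComplex (Set.univ : Set X)],
      (∀ n, 2 < n → IsEmpty (Topology.CWComplex.cell (Set.univ : Set X) n)) →
      ∀ x : X, Nonempty (FundamentalGroup X x ≃* Γ) →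
      ∀ (Y : Type*) [TopologicalSpace Y] (p : Y → X), IsCoveringMap p → Function.Surjective p →
        ¬ContractibleSpace Y := by
  refine ⟨BB Gs, inferInstance, acyL.cd (u := 0) (v := 6) (w := 16) (by decide) (by decide)
    (by decide +kernel) (by decide +kernel) (by decide +kernel), ?_⟩
  intro X _ _ _ dim x ⟨e⟩ Y _ p hp hs hY
  obtain ⟨A, R, π, w, h1, h2, h3⟩ := cw_pres dim hp hs e
  exact nogo acyL flL π w h1 h2 h3
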