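import Vale.Agent.P173.Lx
import Vale.Agent.P173.Cd

open Vale.Agent.P173 in
theorem Vale.Agent.Results.P173.Pres.result : ∃ (Γ : Type) (_ : Group Γ),
    CategoryTheory.projectiveDimension (ModuleCat.of (MonoidAlgebra ℤ Γ)
      (Representation.trivial ℤ Γ ℤ).asModule) = 2 ∧
    ∀ (A R : Type*) (π : FreeGroup A →* Γ) (w : R → FreeGroup A)
      (D : Γ → FreeGroup A → (Γ × A →₀ ℤ)),
      Function.Surjective π → π.ker = Subgroup.normalClosure (Set.range w) →
      (∀ g a, D g (FreeGroup.of a) = Finsupp.single (g, a) 1) →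
      (∀ g u v, D g (u * v) = D g u + D (g * π u) v) →
      ¬LinearIndependent ℤ fun f : Γ × R => D f.1 (w f.2) := by
  refine ⟨BB Gs, inferInstance, acyL.cd (u := 0) (v := 6) (w := 16) (by decide) (by decide)
    (by decide +kernel) (by decide +kernel) (by decide +kernel), fun A R π w D s k h1 h2 => ?_⟩
  simp only [cross_ext π h2 (fox_mul π) fun g a => (h1 g a).trans (fox_of π g a).symm]
  exact nogo acyL flL π w s k
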